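import Vale.Agent.Results.P061.CompleteThinness

/-!
# P061 (strong thin tree conjecture): spanning trees of complete graphs, in plain form

Let `n ≥ 2`.  A cut `(S, Sᶜ)` of the complete graph `K_n` contains `|S| * |Sᶜ|` edges of `K_n`.
For a tree `T` on the vertex set `Fin n` (a spanning tree of `K_n`), the number of edges of `T`
in the cut is the number of pairs `(u, v)` with `u ∈ S`, `v ∉ S` and `u`, `v` adjacent in `T`.

1. If every cut contains at most `α * |S| * |Sᶜ|` edges of `T`, then `α ≥ 4 (n - 1) / n ^ 2`.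
2. Some tree `T` has at most `(4 / n) * |S| * |Sᶜ|` edges in every cut.

This is the case `m = 1` of the hand-in `CompleteThinness`, with all definitions written out.
-/

namespace Vale.Agent.Results.P061.CompleteGraphTrees

open Vale.Agent.Results.P061.CompleteThinness

theorem result (n : ℕ) (hn : 2 ≤ n) :
    (∀ (T : SimpleGraph (Fin n)) (α : ℝ), T.IsTree →
      (∀ S : Finset (Fin n), S.Nonempty → Sᶜ.Nonempty →
        (Set.ncard {p : Fin n × Fin n | p.1 ∈ S ∧ p.2 ∉ S ∧ T.Adj p.1 p.2} : ℝ) ≤
          α * ((S.card : ℝ) * (Sᶜ.card : ℝ))) →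
      4 * ((n : ℝ) - 1) / (n : ℝ) ^ 2 ≤ α) ∧
    (∃ T : SimpleGraph (Fin n), T.IsTree ∧
      ∀ S : Finset (Fin n), S.Nonempty → Sᶜ.Nonempty →
        (Set.ncard {p : Fin n × Fin n | p.1 ∈ S ∧ p.2 ∉ S ∧ T.Adj p.1 p.2} : ℝ) ≤
          4 / (n : ℝ) * ((S.card : ℝ) * (Sᶜ.card : ℝ))) := by
  have hcut : ∀ S : Finset (Fin n),
      (((complete n 1).cut S : ℕ) : ℝ) = (S.card : ℝ) * (Sᶜ.card : ℝ) := by
    intro S
    rw [complete_cut]
    push_cast
    ring
  constructor
  · intro T α hT h
    have hthin : IsThinTree (complete n 1) α T := by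
      refine ⟨hT, fun u v huv => ?_, fun S hS hSc => ?_⟩
      · have hne : u ≠ v := T.ne_of_adj huv
        simp [complete, hne]
      · rw [hcut]
        exact h S hS hSc
    have h1 := complete_lower n 1 hn le_rfl α T hthin
    simpa using h1
  · obtain ⟨hT, -, hthin⟩ := complete_upper n 1 hn le_rfl
    refine ⟨SimpleGraph.pathGraph n, hT, fun S hS hSc => ?_⟩
    have h1 := hthin S hS hSc
    rw [hcut] at h1
    unfold treeCut at h1
    simpa using h1

end Vale.Agent.Results.P061.CompleteGraphTrees
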