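import Mathlib

/-!
# P061 (strong thin tree conjecture): thinness of complete multigraphs

For `n ≥ 2` and `m ≥ 1` let `G` be the complete multigraph on `n` vertices in which every pair
of distinct vertices is joined by `m` parallel edges. Then

* `G` is `k`-edge-connected for `k = m (n - 1)`;
* every `α`-thin spanning tree of `G` has `α ≥ 4 (n - 1) / (m n ^ 2) = (4 / k) (1 - 1 / n) ^ 2`;
* `G` has a `4 / (m n)`-thin spanning tree, where `4 / (m n) = (4 / k) (1 - 1 / n)`.

For `n = 2` this is the two-vertex example of the problem (no thinness below `1 / k`); for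
`m = 1`, `n = k + 1` it shows that no thinness below `4 k / (k + 1) ^ 2` can be guaranteed for
`k`-edge-connected graphs.
-/

namespace Vale.Agent.Results.P061.CompleteThinness

open Finset

/-- A finite loopless multigraph on the vertex set `Fin n`:
`mult u v` is the number of parallel edges joining `u` and `v`. -/
structure MGraph (n : ℕ) where
  mult : Fin n → Fin n → ℕ
  symm : ∀ u v, mult u v = mult v u
  loopless : ∀ v, mult v v = 0

/-- The number of edges of `G` (with multiplicity) having exactly one endpoint in `S`. -/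
def MGraph.cut {n : ℕ} (G : MGraph n) (S : Finset (Fin n)) : ℕ :=
  ∑ u ∈ S, ∑ v ∈ Sᶜ, G.mult u v

/-- `G` is `k`-edge-connected: every nonempty proper vertex set has at least `k` boundary edges. -/
def MGraph.EdgeConnected {n : ℕ} (G : MGraph n) (k : ℕ) : Prop :=
  ∀ S : Finset (Fin n), S.Nonempty → Sᶜ.Nonempty → k ≤ G.cut S

/-- The number of edges of the simple graph `T` having exactly one endpoint in `S`. -/
noncomputable def treeCut {n : ℕ} (T : SimpleGraph (Fin n)) (S : Finset (Fin n)) : ℕ :=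
  Set.ncard {p : Fin n × Fin n | p.1 ∈ S ∧ p.2 ∉ S ∧ T.Adj p.1 p.2}

/-- `T` is an `α`-thin spanning tree of the multigraph `G`: `T` is a tree on all the vertices,
every edge of `T` is (a copy of) an edge of `G`, and every cut contains at most `α` times as
many edges of `T` as edges of `G`. -/
def IsThinTree {n : ℕ} (G : MGraph n) (α : ℝ) (T : SimpleGraph (Fin n)) : Prop :=
  T.IsTree ∧ (∀ u v, T.Adj u v → 0 < G.mult u v) ∧
    ∀ S : Finset (Fin n), S.Nonempty → Sᶜ.Nonempty → (treeCut T S : ℝ) ≤ α * (G.cut S : ℝ)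

/-- The complete multigraph on `n` vertices with `m` parallel edges between any two distinct
vertices. -/
def complete (n m : ℕ) : MGraph n where
  mult u v := if u = v then 0 else m
  symm u v := by simp [eq_comm]
  loopless v := by simp

lemma complete_cut (n m : ℕ) (S : Finset (Fin n)) :
    (complete n m).cut S = m * (S.card * Sᶜ.card) := by
  unfold MGraph.cut complete
  simp only
  have : ∀ u ∈ S, ∑ v ∈ Sᶜ, (if u = v then 0 else m) = Sᶜ.card * m := by
    intro u hu
    rw [← smul_eq_mul, ← Finset.sum_const]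
    apply Finset.sum_congr rfl
    intro v hv
    have : u ≠ v := by
      rintro rfl
      exact (Finset.mem_compl.mp hv) hu
    simp [this]
  rw [Finset.sum_congr rfl this]
  simp
  ring

lemma card_add_card_compl' (n : ℕ) (S : Finset (Fin n)) : S.card + Sᶜ.card = n := by
  have := Finset.card_add_card_compl S
  rw [Fintype.card_fin] at this
  exact this

lemma complete_edgeConnected (n m : ℕ) : (complete n m).EdgeConnected (m * (n - 1)) := by
  intro S hS hSc
  rw [complete_cut]
  have h1 : 1 ≤ S.card := hS.card_pos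
  have h2 : 1 ≤ Sᶜ.card := hSc.card_pos
  have h3 := card_add_card_compl' n S
  obtain ⟨a, ha⟩ : ∃ a, S.card = a + 1 := ⟨S.card - 1, by omega⟩
  obtain ⟨b, hb⟩ : ∃ b, Sᶜ.card = b + 1 := ⟨Sᶜ.card - 1, by omega⟩
  rw [ha, hb] at h3 ⊢
  have : n - 1 = a + b + 1 := by omega
  rw [this]
  apply Nat.mul_le_mul_left
  nlinarith

/-- In a tree on `n ≥ 2` vertices, one colour class of a proper 2-colouring is a cut
containing all `n - 1` edges. -/
lemma tree_cut (n : ℕ) (hn : 2 ≤ n) (T : SimpleGraph (Fin n)) (hT : T.IsTree) :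
    ∃ S : Finset (Fin n), S.Nonempty ∧ Sᶜ.Nonempty ∧ n - 1 ≤ treeCut T S := by
  classical
  let c := hT.coloringTwo
  let S : Finset (Fin n) := Finset.univ.filter (fun v => c v = 0)
  have hbip : T.IsBipartiteWith (S : Set (Fin n)) ((Sᶜ : Finset (Fin n)) : Set (Fin n)) := by
    refine ⟨?_, ?_⟩
    · rw [Finset.disjoint_coe]
      exact disjoint_compl_right
    · intro v w hvw
      have hne : c v ≠ c w := c.valid hvw
      have hv : c v = 0 ∨ c v = 1 := by omega
      have hw : c w = 0 ∨ c w = 1 := by omega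
      simp only [S, Finset.coe_compl, Finset.coe_filter, Finset.mem_univ, true_and,
        Set.mem_ofPred_eq, Set.mem_compl_iff]
      rcases hv with hv | hv <;> rcases hw with hw | hw
      · exact absurd (hv.trans hw.symm) hne
      · left; exact ⟨hv, by rw [hw]; decide⟩
      · right; exact ⟨by rw [hv]; decide, hw⟩
      · exact absurd (hv.trans hw.symm) hne
  have hdeg : ∑ v ∈ S, T.degree v = T.edgeFinset.card :=
    SimpleGraph.isBipartiteWith_sum_degrees_eq_card_edges hbip
  have hcard : T.edgeFinset.card + 1 = n := by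
    have := hT.card_edgeFinset
    simpa using this
  have hcut : treeCut T S = ∑ v ∈ S, T.degree v := by
    unfold treeCut
    have hset : {p : Fin n × Fin n | p.1 ∈ S ∧ p.2 ∉ S ∧ T.Adj p.1 p.2}
        = ((S.sigma (fun v => T.neighborFinset v)).map
            ⟨fun x => (x.1, x.2), fun x y h => by
              cases x; cases y; simp only [Prod.mk.injEq] at h; obtain ⟨rfl, rfl⟩ := h; rfl⟩ :
            Finset (Fin n × Fin n)) := by
      ext ⟨u, v⟩
      simp only [Set.mem_ofPred_eq, Finset.coe_map, Set.mem_image,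
        Finset.mem_coe, Finset.mem_sigma, SimpleGraph.mem_neighborFinset, Sigma.exists]
      constructor
      · rintro ⟨hu, hv, hadj⟩
        exact ⟨u, v, ⟨hu, hadj⟩, rfl⟩
      · rintro ⟨a, b, ⟨ha, hadj⟩, hab⟩
        have hab' : (a, b) = (u, v) := hab
        rw [Prod.mk.injEq] at hab'
        obtain ⟨rfl, rfl⟩ := hab'
        refine ⟨ha, ?_, hadj⟩
        have := hbip.mem_of_mem_adj (Finset.mem_coe.mpr ha) hadj
        simpa using this
    rw [hset, Set.ncard_coe_finset, Finset.card_map, Finset.card_sigma]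
    apply Finset.sum_congr rfl
    intro v _
    exact T.card_neighborFinset_eq_degree v
  have hedge : 1 ≤ T.edgeFinset.card := by omega
  have hSne : S.Nonempty := by
    by_contra hS
    rw [Finset.not_nonempty_iff_eq_empty] at hS
    rw [hS] at hdeg
    simp at hdeg
    omega
  have hScne : Sᶜ.Nonempty := by
    by_contra hS
    rw [Finset.not_nonempty_iff_eq_empty] at hS
    have hdeg' : ∑ v ∈ Sᶜ, T.degree v = T.edgeFinset.card :=
      SimpleGraph.isBipartiteWith_sum_degrees_eq_card_edges' hbip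
    rw [hS] at hdeg'
    simp at hdeg'
    omega
  refine ⟨S, hSne, hScne, ?_⟩
  rw [hcut, hdeg]
  omega

/-- Lower bound: every `α`-thin spanning tree of the complete multigraph has
`α ≥ 4 (n - 1) / (m n ^ 2)`. -/
lemma complete_lower (n m : ℕ) (hn : 2 ≤ n) (hm : 1 ≤ m) (α : ℝ) (T : SimpleGraph (Fin n))
    (hT : IsThinTree (complete n m) α T) :
    4 * ((n : ℝ) - 1) / ((m : ℝ) * (n : ℝ) ^ 2) ≤ α := by
  obtain ⟨htree, -, hthin⟩ := hT
  obtain ⟨S, hS, hSc, hcut⟩ := tree_cut n hn T htree
  have h := hthin S hS hSc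
  rw [complete_cut] at h
  have hsum := card_add_card_compl' n S
  have hn1 : ((n - 1 : ℕ) : ℝ) = (n : ℝ) - 1 := by
    rw [Nat.cast_sub (by omega)]; simp
  have hcut' : (n : ℝ) - 1 ≤ (treeCut T S : ℝ) := by
    rw [← hn1]; exact_mod_cast hcut
  have hnpos : (0 : ℝ) < (n : ℝ) - 1 := by
    have : (2 : ℝ) ≤ n := by exact_mod_cast hn
    linarith
  have hn0 : (0 : ℝ) < (n : ℝ) := by linarith
  have hm0 : (0 : ℝ) < (m : ℝ) := by exact_mod_cast hm
  have ha : (1 : ℝ) ≤ (S.card : ℝ) := by exact_mod_cast hS.card_pos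
  have hb : (1 : ℝ) ≤ (Sᶜ.card : ℝ) := by exact_mod_cast hSc.card_pos
  have hab : (S.card : ℝ) + (Sᶜ.card : ℝ) = n := by exact_mod_cast hsum
  push_cast at h
  have h1 : (n : ℝ) - 1 ≤ α * ((m : ℝ) * ((S.card : ℝ) * (Sᶜ.card : ℝ))) := le_trans hcut' h
  have hprod_pos : (0 : ℝ) < (m : ℝ) * ((S.card : ℝ) * (Sᶜ.card : ℝ)) := by positivity
  have hαpos : 0 < α := by
    by_contra hC
    push Not at hC
    have : α * ((m : ℝ) * ((S.card : ℝ) * (Sᶜ.card : ℝ))) ≤ 0 :=
      mul_nonpos_of_nonpos_of_nonneg hC hprod_pos.le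
    linarith
  have h4 : 4 * ((S.card : ℝ) * (Sᶜ.card : ℝ)) ≤ (n : ℝ) ^ 2 := by
    rw [← hab]; nlinarith [sq_nonneg ((S.card : ℝ) - (Sᶜ.card : ℝ))]
  rw [div_le_iff₀ (by positivity)]
  have h5 : α * ((m : ℝ) * ((S.card : ℝ) * (Sᶜ.card : ℝ))) * 4 ≤ α * ((m : ℝ) * (n : ℝ) ^ 2) := by
    have : (m : ℝ) * ((S.card : ℝ) * (Sᶜ.card : ℝ)) * 4 ≤ (m : ℝ) * (n : ℝ) ^ 2 := by
      nlinarith
    nlinarith
  nlinarith

/-- The path graph on `Fin n` is a tree when `n ≥ 1`. -/
lemma pathGraph_isTree (n : ℕ) (hn : 1 ≤ n) : (SimpleGraph.pathGraph n).IsTree := by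
  classical
  obtain ⟨j, rfl⟩ : ∃ j, n = j + 1 := ⟨n - 1, by omega⟩
  rw [SimpleGraph.isTree_iff_connected_and_card]
  refine ⟨SimpleGraph.pathGraph_connected j, ?_⟩
  have hconn := (SimpleGraph.pathGraph_connected j).card_vert_le_card_edgeSet_add_one
  have hle : Nat.card (SimpleGraph.pathGraph (j + 1)).edgeSet ≤ j := by
    rw [Nat.card_eq_fintype_card, ← SimpleGraph.edgeFinset_card]
    have hsub : (SimpleGraph.pathGraph (j + 1)).edgeFinset ⊆
        (Finset.univ : Finset (Fin j)).image (fun i : Fin j => s(i.castSucc, i.succ)) := by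
      intro e he
      rw [SimpleGraph.mem_edgeFinset] at he
      induction e using Sym2.ind with
      | _ u v =>
        rw [SimpleGraph.mem_edgeSet, SimpleGraph.pathGraph_adj] at he
        rw [Finset.mem_image]
        rcases he with h | h
        · refine ⟨⟨u.val, by omega⟩, Finset.mem_univ _, ?_⟩
          congr 1
          · ext; simp [h]
        · refine ⟨⟨v.val, by omega⟩, Finset.mem_univ _, ?_⟩
          rw [Sym2.eq_swap]
          congr 1
          · ext; simp [h]
    calc (SimpleGraph.pathGraph (j + 1)).edgeFinset.card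
        ≤ ((Finset.univ : Finset (Fin j)).image (fun i : Fin j => s(i.castSucc, i.succ))).card :=
          Finset.card_le_card hsub
      _ ≤ (Finset.univ : Finset (Fin j)).card := Finset.card_image_le
      _ = j := by simp
  simp only [Nat.card_eq_fintype_card, Fintype.card_fin] at hconn hle ⊢
  omega

/-- Every cut of the path graph contains at most twice as many path edges as there are
vertices on the side `S`, and at most twice as many as on the other side. -/
lemma pathGraph_cut_le (n : ℕ) (S : Finset (Fin n)) :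
    treeCut (SimpleGraph.pathGraph n) S ≤ 2 * S.card ∧
    treeCut (SimpleGraph.pathGraph n) S ≤ 2 * Sᶜ.card := by
  classical
  unfold treeCut
  constructor
  · have hinj : Set.InjOn (fun p : Fin n × Fin n => (p.1, decide (p.1 < p.2)))
        {p : Fin n × Fin n | p.1 ∈ S ∧ p.2 ∉ S ∧ (SimpleGraph.pathGraph n).Adj p.1 p.2} := by
      rintro ⟨a, b⟩ ⟨-, -, hab⟩ ⟨c, d⟩ ⟨-, -, hcd⟩ h
      simp only [SimpleGraph.pathGraph_adj] at hab hcd
      simp only [Prod.mk.injEq, decide_eq_decide] at h
      obtain ⟨rfl, h2⟩ := h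
      simp only [Prod.mk.injEq, true_and]
      rw [Fin.lt_def, Fin.lt_def] at h2
      ext
      omega
    have hmaps : Set.MapsTo (fun p : Fin n × Fin n => (p.1, decide (p.1 < p.2)))
        {p : Fin n × Fin n | p.1 ∈ S ∧ p.2 ∉ S ∧ (SimpleGraph.pathGraph n).Adj p.1 p.2}
        ((S ×ˢ (Finset.univ : Finset Bool) : Finset (Fin n × Bool)) : Set (Fin n × Bool)) := by
      rintro ⟨a, b⟩ ⟨ha, -, -⟩
      exact Finset.mem_coe.mpr (Finset.mem_product.mpr ⟨ha, Finset.mem_univ _⟩)
    have := Set.ncard_le_ncard_of_injOn _ hmaps hinj (Finset.finite_toSet _)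
    rw [Set.ncard_coe_finset, Finset.card_product] at this
    simpa [mul_comm] using this
  · have hinj : Set.InjOn (fun p : Fin n × Fin n => (p.2, decide (p.1 < p.2)))
        {p : Fin n × Fin n | p.1 ∈ S ∧ p.2 ∉ S ∧ (SimpleGraph.pathGraph n).Adj p.1 p.2} := by
      rintro ⟨a, b⟩ ⟨-, -, hab⟩ ⟨c, d⟩ ⟨-, -, hcd⟩ h
      simp only [SimpleGraph.pathGraph_adj] at hab hcd
      simp only [Prod.mk.injEq, decide_eq_decide] at h
      obtain ⟨rfl, h2⟩ := h
      simp only [Prod.mk.injEq, and_true]
      rw [Fin.lt_def, Fin.lt_def] at h2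
      ext
      omega
    have hmaps : Set.MapsTo (fun p : Fin n × Fin n => (p.2, decide (p.1 < p.2)))
        {p : Fin n × Fin n | p.1 ∈ S ∧ p.2 ∉ S ∧ (SimpleGraph.pathGraph n).Adj p.1 p.2}
        ((Sᶜ ×ˢ (Finset.univ : Finset Bool) : Finset (Fin n × Bool)) : Set (Fin n × Bool)) := by
      rintro ⟨a, b⟩ ⟨-, hb, -⟩
      exact Finset.mem_coe.mpr (Finset.mem_product.mpr ⟨Finset.mem_compl.mpr hb, Finset.mem_univ _⟩)
    have := Set.ncard_le_ncard_of_injOn _ hmaps hinj (Finset.finite_toSet _)
    rw [Set.ncard_coe_finset, Finset.card_product] at this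
    simpa [mul_comm] using this

/-- Upper bound: the Hamiltonian path is a `4 / (m n)`-thin spanning tree of the complete
multigraph. -/
lemma complete_upper (n m : ℕ) (hn : 2 ≤ n) (hm : 1 ≤ m) :
    IsThinTree (complete n m) (4 / ((m : ℝ) * (n : ℝ))) (SimpleGraph.pathGraph n) := by
  refine ⟨pathGraph_isTree n (by omega), ?_, ?_⟩
  · intro u v huv
    have : u ≠ v := (SimpleGraph.pathGraph n).ne_of_adj huv
    simp [complete, this]
    omega
  · intro S hS hSc
    rw [complete_cut]
    obtain ⟨h1, h2⟩ := pathGraph_cut_le n S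
    have hsum := card_add_card_compl' n S
    have ha : (1 : ℝ) ≤ (S.card : ℝ) := by exact_mod_cast hS.card_pos
    have hb : (1 : ℝ) ≤ (Sᶜ.card : ℝ) := by exact_mod_cast hSc.card_pos
    have hab : (S.card : ℝ) + (Sᶜ.card : ℝ) = n := by exact_mod_cast hsum
    have hm0 : (0 : ℝ) < (m : ℝ) := by exact_mod_cast hm
    have hn0 : (0 : ℝ) < (n : ℝ) := by
      have : (2 : ℝ) ≤ n := by exact_mod_cast hn
      linarith
    have h1' : (treeCut (SimpleGraph.pathGraph n) S : ℝ) ≤ 2 * (S.card : ℝ) := by exact_mod_cast h1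
    have h2' : (treeCut (SimpleGraph.pathGraph n) S : ℝ) ≤ 2 * (Sᶜ.card : ℝ) := by
      exact_mod_cast h2
    push_cast
    have e : 4 / ((m : ℝ) * (n : ℝ)) * ((m : ℝ) * ((S.card : ℝ) * (Sᶜ.card : ℝ)))
        = 4 * ((S.card : ℝ) * (Sᶜ.card : ℝ)) / (n : ℝ) := by
      field_simp
    rw [e, le_div_iff₀ hn0]
    rw [← hab]
    rcases le_total (S.card : ℝ) (Sᶜ.card : ℝ) with hle | hle
    · nlinarith
    · nlinarith

/-- **Thinness of complete multigraphs.** For `n ≥ 2` and `m ≥ 1`, the complete multigraph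
with `m` parallel edges between any two of its `n` vertices is `m (n - 1)`-edge-connected;
each of its `α`-thin spanning trees has `α ≥ 4 (n - 1) / (m n ^ 2)`; and it has a
`4 / (m n)`-thin spanning tree. -/
theorem result : ∀ n m : ℕ, 2 ≤ n → 1 ≤ m →
    (complete n m).EdgeConnected (m * (n - 1)) ∧
    (∀ (α : ℝ) (T : SimpleGraph (Fin n)), IsThinTree (complete n m) α T →
      4 * ((n : ℝ) - 1) / ((m : ℝ) * (n : ℝ) ^ 2) ≤ α) ∧
    (∃ T : SimpleGraph (Fin n), IsThinTree (complete n m) (4 / ((m : ℝ) * (n : ℝ))) T) := by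
  intro n m hn hm
  exact ⟨complete_edgeConnected n m, fun α T hT => complete_lower n m hn hm α T hT,
    ⟨SimpleGraph.pathGraph n, complete_upper n m hn hm⟩⟩

end Vale.Agent.Results.P061.CompleteThinness
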