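import Vale.Agent.Helper3.CompleteExact

/-!
# P061 (strong thin tree conjecture): the exact optimal thinness of complete multigraphs

Let `n ≥ 2` and `m ≥ 1`.  In the complete multigraph on `n` vertices with `m` parallel edges
between any two distinct vertices, the cut `(S, Sᶜ)` contains `m * |S| * |Sᶜ|` edges.  For a
tree `T` on the vertex set `Fin n` (a spanning tree), the number of edges of `T` in the cut is
the number of pairs `(u, v)` with `u ∈ S`, `v ∉ S` and `u`, `v` adjacent in `T`.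

1. If every cut contains at most `α * (m * |S| * |Sᶜ|)` edges of `T`, then
   `α ≥ (n - 1) / (m * ⌊n ^ 2 / 4⌋)`.
2. Some tree `T` has at most `(n - 1) / (m * ⌊n ^ 2 / 4⌋) * (m * |S| * |Sᶜ|)` edges in every
   cut.

So the least `α` for which this multigraph has an `α`-thin spanning tree is exactly
`(n - 1) / (m * ⌊n ^ 2 / 4⌋)`; the floor is written `n ^ 2 / 4` with natural-number division.
-/

namespace Vale.Agent.Results.P061.ExactCompleteThinness

theorem result (n m : ℕ) (hn : 2 ≤ n) (hm : 1 ≤ m) :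
    (∀ (T : SimpleGraph (Fin n)) (α : ℝ), T.IsTree →
      (∀ S : Finset (Fin n), S.Nonempty → Sᶜ.Nonempty →
        (Set.ncard {p : Fin n × Fin n | p.1 ∈ S ∧ p.2 ∉ S ∧ T.Adj p.1 p.2} : ℝ) ≤
          α * ((m : ℝ) * ((S.card : ℝ) * (Sᶜ.card : ℝ)))) →
      ((n : ℝ) - 1) / ((m : ℝ) * ((n ^ 2 / 4 : ℕ) : ℝ)) ≤ α) ∧
    (∃ T : SimpleGraph (Fin n), T.IsTree ∧
      ∀ S : Finset (Fin n), S.Nonempty → Sᶜ.Nonempty →
        (Set.ncard {p : Fin n × Fin n | p.1 ∈ S ∧ p.2 ∉ S ∧ T.Adj p.1 p.2} : ℝ) ≤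
          ((n : ℝ) - 1) / ((m : ℝ) * ((n ^ 2 / 4 : ℕ) : ℝ)) *
            ((m : ℝ) * ((S.card : ℝ) * (Sᶜ.card : ℝ)))) :=
  ⟨fun T α hT h => Vale.Agent.Helper3.CompleteExact.exact_lower n m hn hm T α hT h,
    SimpleGraph.pathGraph n,
    Vale.Agent.Results.P061.CompleteThinness.pathGraph_isTree n (by omega),
    fun S hS hSc => Vale.Agent.Helper3.CompleteExact.exact_upper n m hn hm S hS hSc⟩

end Vale.Agent.Results.P061.ExactCompleteThinness
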