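import Mathlib

/-!
# P061 (strong thin tree conjecture): any admissible constant is at least 4

A finite loopless multigraph on `Fin n` is given by its symmetric multiplicity function.
We show: if `C` is a real number such that, for all `n ≥ 2` and `k ≥ 1`, every
`k`-edge-connected multigraph on `n` vertices has a `(C / k)`-thin spanning tree, then `4 ≤ C`.
The witnesses are the complete graphs: the two colour classes of a spanning tree form a cut
containing all `n - 1` tree edges, while every cut of the complete graph has at most `n ^ 2 / 4`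
edges.
-/

namespace Vale.Agent.Results.P061.ThinConstGeFour

open Finset

/-- A finite loopless multigraph on the vertex set `Fin n`:
`mult u v` is the number of parallel edges joining `u` and `v`. -/
structure MGraph (n : ℕ) where
  mult : Fin n → Fin n → ℕ
  symm : ∀ u v, mult u v = mult v u
  loopless : ∀ v, mult v v = 0

/-- The number of edges of `G` (with multiplicity) having exactly one endpoint in `S`. -/
def MGraph.cut {n : ℕ} (G : MGraph n) (S : Finset (Fin n)) : ℕ :=
  ∑ u ∈ S, ∑ v ∈ Sᶜ, G.mult u v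

/-- `G` is `k`-edge-connected: every nonempty proper vertex set has at least `k` boundary edges. -/
def MGraph.EdgeConnected {n : ℕ} (G : MGraph n) (k : ℕ) : Prop :=
  ∀ S : Finset (Fin n), S.Nonempty → Sᶜ.Nonempty → k ≤ G.cut S

/-- The number of edges of the simple graph `T` having exactly one endpoint in `S`. -/
noncomputable def treeCut {n : ℕ} (T : SimpleGraph (Fin n)) (S : Finset (Fin n)) : ℕ :=
  Set.ncard {p : Fin n × Fin n | p.1 ∈ S ∧ p.2 ∉ S ∧ T.Adj p.1 p.2}

/-- `T` is an `α`-thin spanning tree of the multigraph `G`: `T` is a tree on all the vertices,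
every edge of `T` is (a copy of) an edge of `G`, and every cut contains at most `α` times as
many edges of `T` as edges of `G`. -/
def IsThinTree {n : ℕ} (G : MGraph n) (α : ℝ) (T : SimpleGraph (Fin n)) : Prop :=
  T.IsTree ∧ (∀ u v, T.Adj u v → 0 < G.mult u v) ∧
    ∀ S : Finset (Fin n), S.Nonempty → Sᶜ.Nonempty → (treeCut T S : ℝ) ≤ α * (G.cut S : ℝ)

/-- The complete graph on `n` vertices, as a multigraph. -/
def complete (n : ℕ) : MGraph n where
  mult u v := if u = v then 0 else 1
  symm u v := by simp [eq_comm]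
  loopless v := by simp

lemma complete_cut (n : ℕ) (S : Finset (Fin n)) :
    (complete n).cut S = S.card * Sᶜ.card := by
  unfold MGraph.cut complete
  simp only
  have : ∀ u ∈ S, ∑ v ∈ Sᶜ, (if u = v then 0 else 1) = Sᶜ.card := by
    intro u hu
    rw [Finset.card_eq_sum_ones]
    apply Finset.sum_congr rfl
    intro v hv
    have : u ≠ v := by
      rintro rfl
      exact (Finset.mem_compl.mp hv) hu
    simp [this]
  rw [Finset.sum_congr rfl this]
  simp

lemma card_add_card_compl' (n : ℕ) (S : Finset (Fin n)) : S.card + Sᶜ.card = n := by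
  have := Finset.card_add_card_compl S
  rw [Fintype.card_fin] at this
  exact this

lemma complete_edgeConnected (n : ℕ) : (complete n).EdgeConnected (n - 1) := by
  intro S hS hSc
  rw [complete_cut]
  have h1 : 1 ≤ S.card := hS.card_pos
  have h2 : 1 ≤ Sᶜ.card := hSc.card_pos
  have h3 := card_add_card_compl' n S
  obtain ⟨a, ha⟩ : ∃ a, S.card = a + 1 := ⟨S.card - 1, by omega⟩
  obtain ⟨b, hb⟩ : ∃ b, Sᶜ.card = b + 1 := ⟨Sᶜ.card - 1, by omega⟩
  rw [ha, hb] at h3 ⊢
  have : n - 1 = a + b + 1 := by omega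
  rw [this]
  nlinarith

/-- In a tree on `n ≥ 2` vertices, one colour class of a proper 2-colouring is a cut
containing all `n - 1` edges. -/
lemma tree_cut (n : ℕ) (hn : 2 ≤ n) (T : SimpleGraph (Fin n)) (hT : T.IsTree) :
    ∃ S : Finset (Fin n), S.Nonempty ∧ Sᶜ.Nonempty ∧ n - 1 ≤ treeCut T S := by
  classical
  let c := hT.coloringTwo
  let S : Finset (Fin n) := Finset.univ.filter (fun v => c v = 0)
  have hbip : T.IsBipartiteWith (S : Set (Fin n)) ((Sᶜ : Finset (Fin n)) : Set (Fin n)) := by
    refine ⟨?_, ?_⟩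
    · rw [Finset.disjoint_coe]
      exact disjoint_compl_right
    · intro v w hvw
      have hne : c v ≠ c w := c.valid hvw
      have hv : c v = 0 ∨ c v = 1 := by omega
      have hw : c w = 0 ∨ c w = 1 := by omega
      simp only [S, Finset.coe_compl, Finset.coe_filter, Finset.mem_univ, true_and,
        Set.mem_ofPred_eq, Set.mem_compl_iff]
      rcases hv with hv | hv <;> rcases hw with hw | hw
      · exact absurd (hv.trans hw.symm) hne
      · left; exact ⟨hv, by rw [hw]; decide⟩
      · right; exact ⟨by rw [hv]; decide, hw⟩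
      · exact absurd (hv.trans hw.symm) hne
  have hdeg : ∑ v ∈ S, T.degree v = T.edgeFinset.card :=
    SimpleGraph.isBipartiteWith_sum_degrees_eq_card_edges hbip
  have hcard : T.edgeFinset.card + 1 = n := by
    have := hT.card_edgeFinset
    simpa using this
  -- the tree cut counts exactly the degrees of the vertices of `S`
  have hcut : treeCut T S = ∑ v ∈ S, T.degree v := by
    unfold treeCut
    have hset : {p : Fin n × Fin n | p.1 ∈ S ∧ p.2 ∉ S ∧ T.Adj p.1 p.2}
        = ((S.sigma (fun v => T.neighborFinset v)).map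
            ⟨fun x => (x.1, x.2), fun x y h => by
              cases x; cases y; simp only [Prod.mk.injEq] at h; obtain ⟨rfl, rfl⟩ := h; rfl⟩ :
            Finset (Fin n × Fin n)) := by
      ext ⟨u, v⟩
      simp only [Set.mem_ofPred_eq, Finset.coe_map, Set.mem_image,
        Finset.mem_coe, Finset.mem_sigma, SimpleGraph.mem_neighborFinset, Sigma.exists]
      constructor
      · rintro ⟨hu, hv, hadj⟩
        exact ⟨u, v, ⟨hu, hadj⟩, rfl⟩
      · rintro ⟨a, b, ⟨ha, hadj⟩, hab⟩
        have hab' : (a, b) = (u, v) := hab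
        rw [Prod.mk.injEq] at hab'
        obtain ⟨rfl, rfl⟩ := hab'
        refine ⟨ha, ?_, hadj⟩
        have := hbip.mem_of_mem_adj (Finset.mem_coe.mpr ha) hadj
        simpa using this
    rw [hset, Set.ncard_coe_finset, Finset.card_map, Finset.card_sigma]
    apply Finset.sum_congr rfl
    intro v _
    exact T.card_neighborFinset_eq_degree v
  have hedge : 1 ≤ T.edgeFinset.card := by omega
  have hSne : S.Nonempty := by
    by_contra hS
    rw [Finset.not_nonempty_iff_eq_empty] at hS
    rw [hS] at hdeg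
    simp at hdeg
    omega
  have hScne : Sᶜ.Nonempty := by
    by_contra hS
    rw [Finset.not_nonempty_iff_eq_empty] at hS
    have hdeg' : ∑ v ∈ Sᶜ, T.degree v = T.edgeFinset.card :=
      SimpleGraph.isBipartiteWith_sum_degrees_eq_card_edges' hbip
    rw [hS] at hdeg'
    simp at hdeg'
    omega
  refine ⟨S, hSne, hScne, ?_⟩
  rw [hcut, hdeg]
  omega

/-- Quantitative form: a `(C / k)`-thin spanning tree of the complete graph on `n ≥ 2` vertices
(which is `k = n - 1` edge-connected) forces `4 (n - 1)^2 ≤ C n^2`. -/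
lemma complete_bound (n : ℕ) (hn : 2 ≤ n) (C : ℝ) (T : SimpleGraph (Fin n))
    (hT : IsThinTree (complete n) (C / ((n - 1 : ℕ) : ℝ)) T) :
    4 * ((n : ℝ) - 1) ^ 2 ≤ C * (n : ℝ) ^ 2 := by
  obtain ⟨htree, -, hthin⟩ := hT
  obtain ⟨S, hS, hSc, hcut⟩ := tree_cut n hn T htree
  have h := hthin S hS hSc
  rw [complete_cut] at h
  have hsum := card_add_card_compl' n S
  have hn1 : ((n - 1 : ℕ) : ℝ) = (n : ℝ) - 1 := by
    rw [Nat.cast_sub (by omega)]; simp
  rw [hn1] at h
  have hcut' : (n : ℝ) - 1 ≤ (treeCut T S : ℝ) := by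
    rw [← hn1]; exact_mod_cast hcut
  have hnpos : (0 : ℝ) < (n : ℝ) - 1 := by
    have : (2 : ℝ) ≤ n := by exact_mod_cast hn
    linarith
  have ha : (1 : ℝ) ≤ (S.card : ℝ) := by exact_mod_cast hS.card_pos
  have hb : (1 : ℝ) ≤ (Sᶜ.card : ℝ) := by exact_mod_cast hSc.card_pos
  have hab : (S.card : ℝ) + (Sᶜ.card : ℝ) = n := by exact_mod_cast hsum
  push_cast at h
  -- (n - 1) ≤ C / (n - 1) * (a * b)
  have h1 : (n : ℝ) - 1 ≤ C / ((n : ℝ) - 1) * ((S.card : ℝ) * (Sᶜ.card : ℝ)) := le_trans hcut' h
  have h2 : ((n : ℝ) - 1) ^ 2 ≤ C * ((S.card : ℝ) * (Sᶜ.card : ℝ)) := by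
    have := mul_le_mul_of_nonneg_right h1 hnpos.le
    have e : C / ((n : ℝ) - 1) * ((S.card : ℝ) * (Sᶜ.card : ℝ)) * ((n : ℝ) - 1)
        = C * ((S.card : ℝ) * (Sᶜ.card : ℝ)) := by
      field_simp
    rw [e] at this
    nlinarith
  have hprod_pos : (0 : ℝ) < (S.card : ℝ) * (Sᶜ.card : ℝ) := by positivity
  have hCpos : 0 < C := by
    by_contra hC
    push Not at hC
    have : C * ((S.card : ℝ) * (Sᶜ.card : ℝ)) ≤ 0 := mul_nonpos_of_nonpos_of_nonneg hC hprod_pos.le
    nlinarith
  have h4 : 4 * ((S.card : ℝ) * (Sᶜ.card : ℝ)) ≤ (n : ℝ) ^ 2 := by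
    rw [← hab]; nlinarith [sq_nonneg ((S.card : ℝ) - (Sᶜ.card : ℝ))]
  nlinarith

/-- **Any constant admissible in the strong thin tree conjecture is at least `4`.**
If every `k`-edge-connected loopless multigraph on `n ≥ 2` vertices has a `(C / k)`-thin
spanning tree (for all `n ≥ 2`, `k ≥ 1`), then `4 ≤ C`. -/
theorem result : ∀ C : ℝ,
    (∀ n k : ℕ, 2 ≤ n → 1 ≤ k → ∀ G : MGraph n, G.EdgeConnected k →
      ∃ T : SimpleGraph (Fin n), IsThinTree G (C / (k : ℝ)) T) → 4 ≤ C := by
  intro C h
  by_contra hC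
  push Not at hC
  -- choose n with 8 / (4 - C) < n
  obtain ⟨m, hm⟩ := exists_nat_gt (8 / (4 - C))
  set n := m + 2 with hn
  have hn2 : 2 ≤ n := by omega
  obtain ⟨T, hT⟩ := h n (n - 1) hn2 (by omega) (complete n) (complete_edgeConnected n)
  have hb := complete_bound n hn2 C T hT
  have hpos : 0 < 4 - C := by linarith
  have hmn : (8 / (4 - C)) < (n : ℝ) := by
    have : (m : ℝ) ≤ (n : ℝ) := by exact_mod_cast (by omega : m ≤ n)
    linarith
  have h8 : 8 < (4 - C) * (n : ℝ) := by
    rw [div_lt_iff₀ hpos] at hmn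
    linarith
  have hnpos : (2 : ℝ) ≤ (n : ℝ) := by exact_mod_cast hn2
  nlinarith

end Vale.Agent.Results.P061.ThinConstGeFour
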